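import Mathlib

namespace Vale.Agent.Results.P048.DiagonalReduction

open SimpleGraph Finset

/-- The identity `R(C_m, K_n) = (m - 1)(n - 1) + 1` in the equivalent form of the problem: every
graph on `(m - 1)(n - 1) + 1` vertices contains a cycle of length exactly `m` (a copy of the cycle
graph on `m` vertices) or an independent set of `n` vertices. -/
def Identity (m n : ℕ) : Prop :=
  ∀ (V : Type) [Fintype V] (G : SimpleGraph V), Fintype.card V = (m - 1) * (n - 1) + 1 →
    (cycleGraph m ⊑ G) ∨ ∃ s : Finset V, G.IsNIndepSet n s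

theorem copy_left {m : ℕ} {V W : Type} (G : SimpleGraph V) (H : SimpleGraph W)
    (f : Copy (cycleGraph m) (G ⊕g H)) (x0 : Fin m) (v0 : V) (h0 : f.toHom x0 = Sum.inl v0) :
    cycleGraph m ⊑ G := by
  have hall : ∀ x, ∃ v, f.toHom x = Sum.inl v := by
    intro x
    have hr : (G ⊕g H).Reachable (f.toHom x0) (f.toHom x) :=
      (cycleGraph_preconnected x0 x).map f.toHom
    rcases hfx : f.toHom x with v | w
    · exact ⟨v, rfl⟩
    · rw [h0, hfx] at hr
      exact absurd hr (not_reachable_sum_inl_inr v0 w)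
  choose g hg using hall
  refine ⟨⟨⟨g, ?_⟩, ?_⟩⟩
  · intro a b hab
    have := f.toHom.map_rel hab
    rw [hg a, hg b] at this
    exact sum_adj_inl.1 this
  · intro a b hab
    apply f.injective'
    rw [hg a, hg b]
    exact congrArg Sum.inl hab

theorem step (m t : ℕ) (hm : 1 ≤ m) (h : Identity m (t + 2)) : Identity m (t + 1) := by
  intro V _ G hV
  classical
  have hcard : Fintype.card (V ⊕ Fin (m - 1)) = (m - 1) * (t + 2 - 1) + 1 := by
    rw [Fintype.card_sum, hV, Fintype.card_fin]
    have e1 : t + 1 - 1 = t := by omega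
    have e2 : t + 2 - 1 = t + 1 := by omega
    rw [e1, e2]
    ring
  rcases h (V ⊕ Fin (m - 1)) (G ⊕g (⊤ : SimpleGraph (Fin (m - 1)))) hcard with ⟨⟨f⟩⟩ | ⟨s, hs⟩
  · left
    have x0 : Fin m := ⟨0, by omega⟩
    rcases hx : f.toHom x0 with v | w
    · exact copy_left G _ f x0 v hx
    · exfalso
      let f' : Copy (cycleGraph m) ((⊤ : SimpleGraph (Fin (m - 1))) ⊕g G) :=
        ⟨(Iso.sumComm : G ⊕g (⊤ : SimpleGraph (Fin (m - 1))) ≃g _).toHom.comp f.toHom,
          (Iso.sumComm : G ⊕g (⊤ : SimpleGraph (Fin (m - 1))) ≃g _).injective.comp f.injective'⟩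
      have hx' : f'.toHom x0 = Sum.inl w := by
        show (Equiv.sumComm V (Fin (m - 1))) (f.toHom x0) = Sum.inl w
        rw [hx]
        rfl
      obtain ⟨g⟩ := copy_left _ G f' x0 w hx'
      have := Fintype.card_le_of_injective _ g.injective'
      simp only [Fintype.card_fin] at this
      omega
  · right
    have hR : #s.toRight ≤ 1 := by
      rw [card_le_one]
      intro a ha b hb
      by_contra hab
      rw [mem_toRight] at ha hb
      have hne : (Sum.inr a : V ⊕ Fin (m - 1)) ≠ Sum.inr b := fun hh => hab (Sum.inr.inj hh)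
      exact hs.isIndepSet ha hb hne (sum_adj_inr.2 ((top_adj a b).2 hab))
    have hsum := card_toLeft_add_card_toRight (u := s)
    have hL : t + 1 ≤ #s.toLeft := by
      have := hs.card_eq
      omega
    obtain ⟨u, hu, hucard⟩ := exists_subset_card_eq hL
    refine ⟨u, ⟨?_, hucard⟩⟩
    intro a ha b hb hab hadj
    have ha' := mem_toLeft.1 (hu ha)
    have hb' := mem_toLeft.1 (hu hb)
    have hne : (Sum.inl a : V ⊕ Fin (m - 1)) ≠ Sum.inl b := fun hh => hab (Sum.inl.inj hh)
    exact hs.isIndepSet ha' hb' hne (sum_adj_inl.2 hadj)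

theorem down (m : ℕ) (hm : 1 ≤ m) (n : ℕ) (hn : 1 ≤ n) : ∀ j : ℕ, Identity m (n + j) →
    Identity m n := by
  intro j
  induction j with
  | zero => exact fun h => h
  | succ j ih =>
    intro h
    apply ih
    obtain ⟨t, ht⟩ : ∃ t, n + j = t + 1 := ⟨n + j - 1, by omega⟩
    rw [ht]
    apply step m t hm
    have : n + (j + 1) = t + 2 := by omega
    rwa [this] at h

/-- (1) For a fixed cycle length `m`, the identity at `(m, n + 1)` implies the identity at `(m, n)`;
(2) so for fixed `m` the set of `n ≥ 1` at which it holds is an initial segment; (3) the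
conjecture for all `m ≥ n ≥ 3`, `(m, n) ≠ (3, 3)`, is equivalent to its diagonal case `m = n ≥ 4`. -/
theorem result :
    (∀ m n : ℕ, 1 ≤ m → 1 ≤ n → Identity m (n + 1) → Identity m n) ∧
    (∀ m n n' : ℕ, 1 ≤ m → 1 ≤ n → n ≤ n' → Identity m n' → Identity m n) ∧
    ((∀ m n : ℕ, 3 ≤ n → n ≤ m → (m, n) ≠ (3, 3) → Identity m n) ↔
      ∀ m : ℕ, 4 ≤ m → Identity m m) := by
  have h2 : ∀ m n n' : ℕ, 1 ≤ m → 1 ≤ n → n ≤ n' → Identity m n' → Identity m n := by
    intro m n n' hm hn hnn h
    obtain ⟨j, rfl⟩ := Nat.exists_eq_add_of_le hnn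
    exact down m hm n hn j h
  refine ⟨fun m n hm hn h => h2 m n (n + 1) hm hn (by omega) h, h2, ?_, ?_⟩
  · intro h m hm
    exact h m m (by omega) le_rfl (by intro hh; simp only [Prod.mk.injEq] at hh; omega)
  · intro h m n hn hnm hne
    have hm4 : 4 ≤ m := by
      by_contra hlt
      have h3 : m = 3 := by omega
      have h3' : n = 3 := by omega
      exact hne (by rw [h3, h3'])
    exact h2 m n m (by omega) (by omega) hnm (h m hm4)

end Vale.Agent.Results.P048.DiagonalReduction
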